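import Mathlib

/-!
Ordered initial pieces, fragments and the counting of fragments.
-/

namespace Vale.Agent.P034

open Finset

variable {X : Type*} [DecidableEq X]

/-- Initial pieces of `H` in decreasing order of the weight `w`. -/
lemma exists_initial (w : X → ℝ) (H : Finset X) :
    ∃ A : ℕ → Finset X, Monotone A ∧ (∀ j, (A j).card ≤ j) ∧ (∀ j, A j ⊆ H) ∧
      (∀ j, H.card ≤ j → A j = H) ∧
      ∀ (p : X → Prop) [DecidablePred p] (c a : ℝ), (∀ x ∈ H, a ≤ w x) →
        (∀ j, (((A j).filter p).card : ℝ) ≤ c * j) →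
        ∑ x ∈ H.filter p, w x - c * ∑ x ∈ H, w x ≤ a * (((H.filter p).card : ℝ) - c * H.card) := by
  induction H using Finset.induction_on_min_value w with
  | empty => exact ⟨fun _ => ∅, monotone_const, by simp, by simp, by simp, by simp⟩
  | insert x H hx hmin ih =>
    obtain ⟨A, hmono, hcard, hsub, hfull, hA⟩ := ih
    have hc : (insert x H).card = H.card + 1 := card_insert_of_notMem hx
    refine ⟨fun j => if j ≤ H.card then A j else insert x H, ?_, ?_, ?_, ?_, ?_⟩
    · intro i j hij
      dsimp only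
      split_ifs with h1 h2 h2
      · exact hmono hij
      · exact (hsub i).trans (subset_insert _ _)
      · omega
      · exact le_rfl
    · intro j
      dsimp only
      split_ifs with h
      · exact hcard j
      · omega
    · intro j
      dsimp only
      split_ifs
      · exact (hsub j).trans (subset_insert _ _)
      · exact le_rfl
    · intro j hj
      dsimp only
      rw [if_neg (by omega)]
    · intro p _ c a ha hp
      dsimp only at hp
      have h1 := hA p c (w x) hmin (fun j => by
        refine le_trans ?_ (hp j)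
        norm_cast
        refine card_le_card (filter_subset_filter _ ?_)
        split_ifs
        · exact le_rfl
        · exact (hsub j).trans (subset_insert _ _))
      have h2 := hp (H.card + 1)
      rw [if_neg (by omega)] at h2
      have h3 : a ≤ w x := ha x (mem_insert_self _ _)
      rw [hc, sum_insert hx]
      rw [filter_insert] at h2 ⊢
      push_cast at h2 ⊢
      split_ifs at h2 ⊢ with hpx
      · have hx' : x ∉ H.filter p := fun h => hx (mem_filter.mp h).1
        rw [card_insert_of_notMem hx'] at h2 ⊢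
        rw [sum_insert hx']
        push_cast at h2 ⊢
        nlinarith
      · nlinarith

variable [Fintype X]

/-- The number of elements of `U` with label at most `k`. -/
def cnt (z : X → ℕ) (U : Finset X) (k : ℕ) : ℕ := (U.filter fun x => z x ≤ k).card

/-- The admissibility condition for the initial pieces `B` of a member of the family. -/
def OK (L : ℕ) (z : X → ℕ) (M : ℕ → ℕ) (B : ℕ → Finset X) : Prop :=
  ∀ k < L, ∀ j, 2 ^ (k + 1) * ((B j).filter fun x => k < z x).card ≤ j - 2 ^ (k + 1) * M k

/-- Valid fragments. -/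
def Valid (F : Set (Finset X)) (A : Finset X → ℕ → Finset X) (L : ℕ) (U : Finset X)
    (z : X → ℕ) : Prop :=
  (∀ x ∈ U, z x < L) ∧ (∃ H ∈ F, OK L z (cnt z U) (A H)) ∧
    ∀ H ∈ F, OK L z (cnt z U) (A H) → ∀ x ∈ U, x ∈ A H (2 ^ (z x + 1) * cnt z U (z x))

lemma exists_fragment {F : Set (Finset X)} {A : Finset X → ℕ → Finset X}
    (hmono : ∀ H, Monotone (A H)) (hsub : ∀ H j, A H j ⊆ H) (L : ℕ) {u : X → ℕ}
    (hu : ∀ x, u x ≤ L) {H : Finset X} (hH : H ∈ F) :
    ∃ U ⊆ H, ∃ z : X → ℕ, (∀ x, z x ≤ L) ∧ (∀ x ∉ U, z x = u x) ∧ Valid F A L U z := by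
  classical
  let Z : (X → ℕ) → X → ℕ := fun t x => if t x < L then t x else u x
  let UU : (X → ℕ) → Finset X := fun t => univ.filter fun x => t x < L
  let T : Finset (X → ℕ) := (Fintype.piFinset fun _ => range (L + 1)).filter fun t =>
    (∀ x ∉ H, t x = L) ∧ ∃ H' ∈ F, OK L (Z t) (cnt (Z t) (UU t)) (A H')
  have hne : T.Nonempty := by
    refine ⟨fun x => if x ∈ H then 0 else L, ?_⟩
    simp only [T, mem_filter, Fintype.mem_piFinset, mem_range]
    refine ⟨fun x => by split_ifs <;> omega, fun x hx => if_neg hx, H, hH, fun k hk j => ?_⟩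
    rw [filter_eq_empty_iff.mpr]
    · simp
    · intro x hx
      have : x ∈ H := hsub H j hx
      have h0 : 0 < L := by omega
      simp [Z, this, h0]
  obtain ⟨t, ht, hmax⟩ := exists_max_image T (fun t => ∑ x, t x) hne
  simp only [T, mem_filter, Fintype.mem_piFinset, mem_range] at ht
  obtain ⟨ht1, ht2, ht3⟩ := ht
  have hU : ∀ x, x ∈ UU t ↔ t x < L := by simp [UU]
  refine ⟨UU t, fun x hx => ?_, Z t, fun x => ?_, fun x hx => ?_, fun x hx => ?_, ht3, ?_⟩
  · by_contra h
    have := ht2 x h
    have := (hU x).mp hx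
    omega
  · simp only [Z]
    split_ifs with h
    · exact h.le
    · exact hu x
  · exact if_neg fun h => hx ((hU x).mpr h)
  · have := (hU x).mp hx
    simp [Z, this]
  intro H' hH' hOK x hx
  have hxL := (hU x).mp hx
  have hZx : Z t x = t x := if_pos hxL
  rw [hZx]
  by_contra hnot
  set t' := Function.update t x (t x + 1) with ht'
  have ht'x : t' x = t x + 1 := Function.update_self _ _ _
  have ht'y : ∀ y, y ≠ x → t' y = t y := fun y hy => Function.update_of_ne hy _ _
  have hZy : ∀ y, y ≠ x → Z t' y = Z t y := fun y hy => by simp only [Z, ht'y y hy]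
  have hcnt : ∀ s : X → ℕ, ∀ k < L, cnt (Z s) (UU s) k = (univ.filter fun y => s y ≤ k).card := by
    intro s k hk
    simp only [cnt, UU, filter_filter]
    congr 1
    ext y
    simp only [mem_filter, mem_univ, true_and, Z]
    constructor
    · rintro ⟨h1, h2⟩; rwa [if_pos h1] at h2
    · intro h
      have : s y < L := by omega
      exact ⟨this, by rwa [if_pos this]⟩
  have hmem : t' ∈ T := by
    simp only [T, mem_filter, Fintype.mem_piFinset, mem_range]
    refine ⟨fun y => ?_, fun y hy => ?_, H', hH', fun k hk j => ?_⟩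
    · by_cases h : y = x
      · rw [h, ht'x]; omega
      · rw [ht'y y h]; exact ht1 y
    · have : y ≠ x := by
        rintro rfl
        have := ht2 y hy
        omega
      rw [ht'y y this]; exact ht2 y hy
    have hOKk := hOK k hk j
    rw [hcnt t k hk] at hOKk
    rw [hcnt t' k hk]
    by_cases hkx : k = t x
    · have e1 : (univ.filter fun y => t y ≤ k) = insert x (univ.filter fun y => t' y ≤ k) := by
        ext y
        simp only [mem_filter, mem_univ, true_and, mem_insert]
        by_cases h : y = x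
        · simp [h, hkx]
        · simp [h, ht'y y h]
      have e2 : x ∉ univ.filter fun y => t' y ≤ k := by simp [ht'x, hkx]
      have e3 := card_insert_of_notMem e2
      rw [← e1] at e3
      rw [← hkx, hcnt t k hk] at hnot
      by_cases hj : j ≤ 2 ^ (k + 1) * (univ.filter fun y => t y ≤ k).card
      · have hxj : x ∉ A H' j := fun h => hnot (hmono H' hj h)
        have e4 : ((A H' j).filter fun y => k < Z t' y) = (A H' j).filter fun y => k < Z t y :=
          filter_congr fun y hy => by rw [hZy y (fun h => hxj (h ▸ hy))]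
        rw [e4]
        refine hOKk.trans (Nat.sub_le_sub_left ?_ _)
        rw [e3]; gcongr; omega
      · have e4 : ((A H' j).filter fun y => k < Z t' y).card ≤
            ((A H' j).filter fun y => k < Z t y).card + 1 := by
          refine le_trans (card_le_card (t := insert x _) fun y hy => ?_) (card_insert_le _ _)
          rw [mem_insert]
          by_cases h : y = x
          · exact Or.inl h
          · rw [mem_filter, hZy y h] at hy
            exact Or.inr (mem_filter.mpr hy)
        have e5 := Nat.mul_le_mul_left (2 ^ (k + 1)) e4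
        rw [e3] at hOKk hj
        rw [mul_add, mul_one] at e5 hOKk hj
        omega
    · have e1 : (univ.filter fun y => t' y ≤ k) = univ.filter fun y => t y ≤ k := by
        ext y
        simp only [mem_filter, mem_univ, true_and]
        by_cases h : y = x
        · rw [h, ht'x]; omega
        · rw [ht'y y h]
      rw [e1]
      refine le_trans (Nat.mul_le_mul_left _ (card_le_card fun y hy => ?_)) hOKk
      rw [mem_filter] at hy ⊢
      refine ⟨hy.1, ?_⟩
      by_cases h : y = x
      · have h2 := hy.2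
        rw [h] at h2 ⊢
        rw [hZx]
        simp only [Z, ht'x] at h2
        split_ifs at h2 <;> omega
      · rw [← hZy y h]; exact hy.2
  have h1 := hmax t' hmem
  have h2 : ∑ y, t y < ∑ y, t' y := by
    refine sum_lt_sum (fun y _ => ?_) ⟨x, mem_univ _, by rw [ht'x]; omega⟩
    by_cases h : y = x
    · rw [h, ht'x]; omega
    · rw [ht'y y h]
  omega

/-- The sizes of the label classes of `U`. -/
def prof (L : ℕ) (z : X → ℕ) (U : Finset X) : Fin L → ℕ :=
  fun k => (U.filter fun x => z x = k).card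

omit [DecidableEq X] [Fintype X] in
lemma cnt_eq_of_prof {L : ℕ} {z : X → ℕ} {U U' : Finset X} (h : prof L z U = prof L z U') {k : ℕ}
    (hk : k < L) : cnt z U k = cnt z U' k := by
  have aux : ∀ V : Finset X, cnt z V k =
      ∑ i ∈ range (k + 1), (V.filter fun x => z x = i).card := by
    intro V
    rw [cnt, card_eq_sum_card_fiberwise (f := z) (t := range (k + 1))]
    · refine sum_congr rfl fun i hi => ?_
      rw [filter_filter]
      congr 1
      refine filter_congr fun x _ => ⟨fun h => h.2, fun h => ⟨?_, h⟩⟩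
      have := mem_range.mp hi
      omega
    · intro x hx
      have := (mem_filter.mp hx).2
      simp only [coe_range, Set.mem_Iio]
      omega
  rw [aux, aux]
  refine sum_congr rfl fun i hi => ?_
  have := mem_range.mp hi
  exact congrFun h ⟨i, by omega⟩

omit [Fintype X] in
lemma fiber_card_le {F : Set (Finset X)} {A : Finset X → ℕ → Finset X}
    (hcard : ∀ H j, (A H j).card ≤ j) {L : ℕ} {z : X → ℕ} (V : Finset (Finset X)) (M : ℕ)
    (m : Fin L → ℕ) (hV : ∀ U ∈ V, Valid F A L U z ∧ U.card = M ∧ prof L z U = m) :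
    V.card ≤ ∏ k, (2 * M).choose (m k) := by
  rcases V.eq_empty_or_nonempty with rfl | ⟨U₀, hU₀⟩
  · simp
  obtain ⟨⟨_, ⟨H, hH, hOK⟩, _⟩, hM, hm⟩ := hV U₀ hU₀
  let B : Fin L → Finset X := fun k =>
    (A H (2 ^ ((k : ℕ) + 1) * cnt z U₀ k)).filter fun x => (k : ℕ) ≤ z x
  have hB : ∀ k, (B k).card ≤ 2 * M := by
    intro k
    have h0 : cnt z U₀ k ≤ M := hM ▸ card_filter_le _ _
    refine le_trans ?_ (Nat.mul_le_mul_left 2 h0)
    rcases Nat.eq_zero_or_pos k with h | h
    · refine (card_filter_le _ _).trans ((hcard _ _).trans ?_)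
      rw [h]; simp
    · have h1 := hOK (k - 1) (by omega) (2 ^ ((k : ℕ) + 1) * cnt z U₀ k)
      rw [show (k : ℕ) - 1 + 1 = k by omega] at h1
      have e : ((A H (2 ^ ((k : ℕ) + 1) * cnt z U₀ k)).filter fun x => (k : ℕ) - 1 < z x) = B k :=
        filter_congr fun x _ => by omega
      rw [e] at h1
      have h2 : 2 ^ (k : ℕ) * (B k).card ≤ 2 ^ (k : ℕ) * (2 * cnt z U₀ k) := by
        refine h1.trans ((Nat.sub_le _ _).trans (le_of_eq ?_))
        ring
      exact Nat.le_of_mul_le_mul_left h2 (by positivity)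
  calc V.card ≤ (Fintype.piFinset fun k => powersetCard (m k) (B k)).card := by
        refine card_le_card_of_injOn (fun U k => U.filter fun x => z x = k) ?_ ?_
        · intro U hU
          obtain ⟨⟨_, _, h3⟩, _, hm'⟩ := hV U hU
          have hc : ∀ k < L, cnt z U k = cnt z U₀ k := fun k hk =>
            cnt_eq_of_prof (hm'.trans hm.symm) hk
          have hOK' : OK L z (cnt z U) (A H) := fun k hk j => by rw [hc k hk]; exact hOK k hk j
          simp only [mem_coe, Fintype.mem_piFinset, mem_powersetCard]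
          refine fun k => ⟨fun x hx => ?_, congrFun hm' k⟩
          obtain ⟨hx1, hx2⟩ := mem_filter.mp hx
          have := h3 H hH hOK' x hx1
          rw [hx2, hc k k.2] at this
          exact mem_filter.mpr ⟨this, hx2.ge⟩
        · intro U hU U' hU' h
          have aux : ∀ {U U' : Finset X}, U ∈ V → (fun k : Fin L => U.filter fun x => z x = k) =
              (fun k : Fin L => U'.filter fun x => z x = k) → U ⊆ U' := by
            intro U U' hU h x hx
            have h1 := congrFun h ⟨z x, (hV U hU).1.1 x hx⟩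
            have : x ∈ U.filter fun y => z y = z x := mem_filter.mpr ⟨hx, rfl⟩
            simp only at h1
            rw [h1] at this
            exact (mem_filter.mp this).1
          exact Subset.antisymm (aux hU h) (aux hU' h.symm)
    _ = ∏ k, (B k).card.choose (m k) := by simp [Fintype.card_piFinset]
    _ ≤ _ := prod_le_prod' fun k _ => Nat.choose_le_choose _ (hB k)

lemma prod_one_add_le (L : ℕ) : ∏ k ∈ range L, (1 + (1 / 2 : ℝ) ^ k / 4) ≤ 2 - (1 / 2) ^ L := by
  induction L with
  | zero => norm_num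
  | succ L ih =>
    rw [prod_range_succ, pow_succ]
    have h : (0 : ℝ) ≤ (1 / 2) ^ L := by positivity
    calc _ ≤ (2 - (1 / 2 : ℝ) ^ L) * (1 + (1 / 2 : ℝ) ^ L / 4) := by gcongr
      _ ≤ _ := by nlinarith

omit [Fintype X] in
lemma sum_card_le {F : Set (Finset X)} {A : Finset X → ℕ → Finset X}
    (hcard : ∀ H j, (A H j).card ≤ j) {L : ℕ} {z : X → ℕ} (V : Finset (Finset X)) (M : ℕ)
    (hV : ∀ U ∈ V, Valid F A L U z ∧ U.card = M) :
    ∑ U ∈ V, ∏ x ∈ U, ((1 / 2 : ℝ) ^ z x / 160) ≤ (1 / 10) ^ M := by
  have h1 : ∀ U ∈ V, ∏ x ∈ U, ((1 / 2 : ℝ) ^ z x / 160) =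
      (1 / 40) ^ M * ∏ k : Fin L, ((1 / 2 : ℝ) ^ (k : ℕ) / 4) ^ prof L z U k := by
    intro U hU
    have e : ∀ x, ((1 / 2 : ℝ) ^ z x / 160) = 1 / 40 * ((1 / 2 : ℝ) ^ z x / 4) := fun x => by ring
    simp only [e, prod_mul_distrib, prod_const, (hV U hU).2]
    congr 1
    rw [← prod_fiberwise_of_maps_to (s := U) (t := range L) (g := z)
      (fun x hx => mem_range.mpr ((hV U hU).1.1 x hx)), prod_range]
    refine prod_congr rfl fun k _ => ?_
    rw [prod_congr rfl (g := fun _ => (1 / 2 : ℝ) ^ (k : ℕ) / 4)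
      fun x hx => by rw [(mem_filter.mp hx).2], prod_const]
    rfl
  rw [sum_congr rfl h1, ← mul_sum, ← sum_fiberwise_of_maps_to (g := prof L z)
    (t := Fintype.piFinset fun _ => range (2 * M + 1)) (fun U hU => by
      simp only [Fintype.mem_piFinset, mem_range]
      intro k
      have : prof L z U k ≤ M := (hV U hU).2 ▸ card_filter_le _ _
      omega)]
  have h2 : ∀ m ∈ Fintype.piFinset fun _ : Fin L => range (2 * M + 1),
      ∑ U ∈ V with prof L z U = m, ∏ k : Fin L, ((1 / 2 : ℝ) ^ (k : ℕ) / 4) ^ prof L z U k ≤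
      ∏ k : Fin L, (((1 / 2 : ℝ) ^ (k : ℕ) / 4) ^ m k * (2 * M).choose (m k)) := by
    intro m _
    rw [sum_congr rfl (g := fun _ => ∏ k : Fin L, ((1 / 2 : ℝ) ^ (k : ℕ) / 4) ^ m k)
      fun U hU => by rw [(mem_filter.mp hU).2], sum_const, nsmul_eq_mul, prod_mul_distrib,
      mul_comm]
    gcongr
    exact_mod_cast fiber_card_le hcard _ M m fun U hU =>
      ⟨(hV U (mem_filter.mp hU).1).1, (hV U (mem_filter.mp hU).1).2, (mem_filter.mp hU).2⟩
  have h3 := sum_le_sum h2
  rw [← prod_univ_sum (fun _ : Fin L => range (2 * M + 1))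
    (fun k i => ((1 / 2 : ℝ) ^ (k : ℕ) / 4) ^ i * (2 * M).choose i)] at h3
  have h4 : ∀ k : Fin L, ∑ i ∈ range (2 * M + 1),
      ((1 / 2 : ℝ) ^ (k : ℕ) / 4) ^ i * (2 * M).choose i =
      (1 + (1 / 2 : ℝ) ^ (k : ℕ) / 4) ^ (2 * M) := by
    intro k
    rw [add_comm 1, add_pow]
    simp
  simp only [h4] at h3
  rw [prod_pow, ← prod_range (fun k => 1 + (1 / 2 : ℝ) ^ k / 4)] at h3
  have h5 : ∏ k ∈ range L, (1 + (1 / 2 : ℝ) ^ k / 4) ≤ 2 :=
    (prod_one_add_le L).trans (sub_le_self _ (by positivity))
  calc _ ≤ (1 / 40 : ℝ) ^ M * 2 ^ (2 * M) := by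
        gcongr
        refine h3.trans ?_
        gcongr
    _ = (1 / 10) ^ M := by rw [pow_mul, ← mul_pow]; norm_num

lemma sum_valid_le {F : Set (Finset X)} {A : Finset X → ℕ → Finset X}
    (hcard : ∀ H j, (A H j).card ≤ j) {L : ℕ} {z : X → ℕ} (V : Finset (Finset X))
    (hV : ∀ U ∈ V, Valid F A L U z ∧ U.Nonempty) :
    ∑ U ∈ V, ∏ x ∈ U, ((1 / 2 : ℝ) ^ z x / 160) ≤ 1 / 9 := by
  rw [← sum_fiberwise_of_maps_to (g := fun U => U.card - 1) (t := range (Fintype.card X))
    (fun U hU => by
      have h1 := card_le_univ U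
      have h2 := (hV U hU).2.card_pos
      rw [mem_range]
      omega)]
  have h : ∀ n : ℕ, ∑ M ∈ range n, (1 / 10 : ℝ) ^ (M + 1) ≤ 1 / 9 - (1 / 10) ^ n / 9 := by
    intro n
    induction n with
    | zero => norm_num
    | succ n ih => rw [sum_range_succ, pow_succ]; linarith
  refine le_trans (sum_le_sum fun M _ => sum_card_le (F := F) (L := L) hcard _ (M + 1)
    fun U hU => ⟨(hV U (mem_filter.mp hU).1).1, ?_⟩) ((h _).trans (sub_le_self _ (by positivity)))
  have h1 := (mem_filter.mp hU).2
  have h2 := (hV U (mem_filter.mp hU).1).2.card_pos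
  omega

end Vale.Agent.P034
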