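import Vale.Agent.P034.Defs
import Vale.Agent.P034.Fragment

/-!
Comparison of the fractional and the integral expectation thresholds.
-/

namespace Vale.Agent.P034

open Finset

variable {X : Type*} [DecidableEq X]

/-- The vertex weights spread from the fractional cover inside `H`. -/
noncomputable def lam (g : Finset X → ℝ) (H : Finset X) (x : X) : ℝ :=
  ∑ S ∈ H.powerset with x ∈ S, g S / S.card

lemma lam_nonneg {g : Finset X → ℝ} (hg : ∀ S, 0 ≤ g S) (H : Finset X) (x : X) :
    0 ≤ lam g H x := sum_nonneg fun S _ => div_nonneg (hg S) (Nat.cast_nonneg _)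

lemma sum_lam_mul (g : Finset X → ℝ) (H : Finset X) (f : X → ℝ) :
    ∑ x ∈ H, lam g H x * f x = ∑ S ∈ H.powerset, g S / S.card * ∑ x ∈ S, f x := by
  simp only [lam, sum_mul, mul_sum, sum_filter]
  rw [sum_comm]
  refine sum_congr rfl fun S hS => ?_
  simp only [ite_mul, zero_mul]
  rw [← sum_filter, filter_mem_eq_inter, inter_eq_right.mpr (mem_powerset.mp hS)]

lemma sum_lam (g : Finset X → ℝ) (H : Finset X) :
    ∑ x ∈ H, lam g H x = ∑ S ∈ H.powerset.erase ∅, g S := by
  have := sum_lam_mul g H fun _ => 1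
  simp only [mul_one, sum_const, nsmul_eq_mul] at this
  rw [this, ← sum_erase (a := ∅) _ (by simp)]
  refine sum_congr rfl fun S hS => ?_
  have : (S.card : ℝ) ≠ 0 := by
    simpa using (mem_erase.mp hS).1
  field_simp

lemma prod_capture (u : X → ℕ) (S : Finset X) :
    1 - (∑ x ∈ S, (u x : ℝ)) / S.card / 2 ≤ ∏ x ∈ S, (16 * (1 / 4 : ℝ) ^ u x) := by
  rw [prod_mul_distrib, prod_const, prod_pow_eq_pow_sum]
  rcases S.eq_empty_or_nonempty with rfl | hS
  · simp
  have hc : (0 : ℝ) < S.card := by exact_mod_cast hS.card_pos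
  by_cases h : ∑ x ∈ S, u x ≤ 2 * S.card
  · have h1 : (1 / 4 : ℝ) ^ (2 * S.card) ≤ (1 / 4) ^ ∑ x ∈ S, u x :=
      pow_le_pow_of_le_one (by norm_num) (by norm_num) h
    have h2 : (16 : ℝ) ^ S.card * (1 / 4) ^ (2 * S.card) = 1 := by
      rw [pow_mul, ← mul_pow]; norm_num
    have h3 : 0 ≤ (∑ x ∈ S, (u x : ℝ)) / S.card / 2 := by positivity
    calc _ ≤ (1 : ℝ) := by linarith
      _ = _ := h2.symm
      _ ≤ _ := by gcongr
  · have h1 : (2 * S.card : ℝ) ≤ ∑ x ∈ S, (u x : ℝ) := by exact_mod_cast (not_le.mp h).le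
    have h2 : 2 ≤ (∑ x ∈ S, (u x : ℝ)) / S.card := by rwa [le_div_iff₀ hc]
    exact le_trans (b := 0) (by linarith) (by positivity)

lemma good_capture {g : Finset X → ℝ} (hg : ∀ S, 0 ≤ g S) {H : Finset X}
    (hH : 1 / 2 ≤ ∑ S ∈ H.powerset.erase ∅, g S) {L : ℕ} {u : X → ℕ} (hu : ∀ x, u x ≤ L)
    (hk : ∀ k < L, ∑ x ∈ H with k < u x, lam g H x ≤ (1 / 2) ^ (k + 1) * ∑ x ∈ H, lam g H x) :
    1 / 4 ≤ ∑ S ∈ H.powerset.erase ∅, g S * ∏ x ∈ S, (16 * (1 / 4 : ℝ) ^ u x) := by
  have hG := sum_lam g H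
  have h1 : ∑ x ∈ H, lam g H x * u x = ∑ k ∈ range L, ∑ x ∈ H with k < u x, lam g H x := by
    simp only [sum_filter]
    rw [sum_comm]
    refine sum_congr rfl fun x _ => ?_
    rw [← sum_filter, sum_const, nsmul_eq_mul, mul_comm]
    congr 2
    have : (range L).filter (fun k => k < u x) = range (u x) := by
      ext k
      have := hu x
      simp only [mem_filter, mem_range]
      omega
    rw [this, card_range]
  have h2 : ∀ n : ℕ, ∑ k ∈ range n, (1 / 2 : ℝ) ^ (k + 1) = 1 - (1 / 2) ^ n := by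
    intro n
    induction n with
    | zero => simp
    | succ n ih => rw [sum_range_succ, ih]; ring
  have h3 : ∑ x ∈ H, lam g H x * u x ≤ ∑ x ∈ H, lam g H x := by
    rw [h1]
    refine (sum_le_sum fun k hk' => hk k (mem_range.mp hk')).trans ?_
    rw [← sum_mul, h2]
    have : (0 : ℝ) ≤ (1 / 2) ^ L := by positivity
    nlinarith
  rw [sum_lam_mul, hG, ← sum_erase (a := ∅) _ (by simp)] at h3
  have h4 : ∑ S ∈ H.powerset.erase ∅, g S * (1 - (∑ x ∈ S, (u x : ℝ)) / S.card / 2) ≤
      ∑ S ∈ H.powerset.erase ∅, g S * ∏ x ∈ S, (16 * (1 / 4 : ℝ) ^ u x) :=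
    sum_le_sum fun S _ => mul_le_mul_of_nonneg_left (prod_capture u S) (hg S)
  have h5 : ∑ S ∈ H.powerset.erase ∅, g S * (1 - (∑ x ∈ S, (u x : ℝ)) / S.card / 2) =
      ∑ S ∈ H.powerset.erase ∅, g S -
        (∑ S ∈ H.powerset.erase ∅, g S / S.card * ∑ x ∈ S, (u x : ℝ)) / 2 := by
    rw [sum_div, ← sum_sub_distrib]
    exact sum_congr rfl fun S _ => by ring
  linarith

variable [Fintype X]

lemma expect_prod (π : ℕ → ℝ) (L : ℕ) (f : X → ℕ → ℝ) :
    ∑ u ∈ Fintype.piFinset fun _ : X => range (L + 1), (∏ x, π (u x)) * ∏ x, f x (u x) =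
      ∏ x, ∑ k ∈ range (L + 1), π k * f x k := by
  rw [prod_univ_sum]
  exact sum_congr rfl fun u _ => prod_mul_distrib.symm

theorem main_ineq {F : Set (Finset X)} {p q : ℝ} (hp : 0 < p) (hq : 0 < q)
    (hfrac : IsFracSmall F p) (hsmall : ¬ IsSmall F q) (hp1 : p ≤ 1) : p ≤ 30000 * q := by
  classical
  by_contra hcon
  push Not at hcon
  obtain ⟨g, hg, hcov, hw⟩ := hfrac
  have hg0 : ∀ S, 0 ≤ g S := fun S => (hg S).1
  -- the number of levels
  obtain ⟨L, hL1, hL2⟩ : ∃ L : ℕ, 2 ^ L * (160 * q) ≤ 1 ∧ 1 < 2 ^ (L + 1) * (160 * q) := by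
    obtain ⟨L, h1, h2⟩ := exists_nat_pow_near (x := (160 * q)⁻¹) (y := 2)
      ((one_le_inv₀ (by positivity)).mpr (by linarith)) one_lt_two
    exact ⟨L, by rwa [← le_mul_inv_iff₀ (by positivity), one_mul],
      by rwa [← mul_inv_lt_iff₀ (by positivity), one_mul]⟩
  set π : ℕ → ℝ := fun k => if k < L then 2 ^ k * (160 * q) else 1 - (2 ^ L - 1) * (160 * q)
    with hπ
  have hπ0 : ∀ k, 0 ≤ π k := fun k => by
    simp only [hπ]
    split_ifs
    · positivity
    · linarith
  have hπ1 : ∑ k ∈ range (L + 1), π k = 1 := by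
    rw [sum_range_succ, sum_congr rfl (g := fun k => 2 ^ k * (160 * q))
      fun k hk => if_pos (mem_range.mp hk), ← sum_mul, geom_sum_eq (by norm_num)]
    simp only [hπ, lt_irrefl, if_false]
    ring
  have hπ2 : ∑ k ∈ range (L + 1), π k * (16 * (1 / 4 : ℝ) ^ k) ≤ 10240 * q := by
    have h1 : ∀ k ∈ range (L + 1), π k * (16 * (1 / 4 : ℝ) ^ k) ≤ 5120 * q * (1 / 2) ^ k := by
      intro k hk
      have h2 : π k ≤ 2 ^ (k + 1) * (160 * q) := by
        simp only [hπ]
        split_ifs with h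
        · gcongr
          · norm_num
          · omega
        · have : k = L := by have := mem_range.mp hk; omega
          have h3 : (1 : ℝ) ≤ 2 ^ L := one_le_pow₀ (by norm_num)
          rw [this]
          nlinarith
      have e : (1 / 2 : ℝ) ^ k = 2 ^ k * (1 / 4) ^ k := by rw [← mul_pow]; norm_num
      calc _ ≤ 2 ^ (k + 1) * (160 * q) * (16 * (1 / 4 : ℝ) ^ k) := by gcongr
        _ = _ := by rw [e]; ring
    refine (sum_le_sum h1).trans ?_
    rw [← mul_sum]
    have := sum_geometric_two_le (L + 1)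
    nlinarith
  -- the initial pieces
  choose A hmono hcard hsub hfull hA using fun H : Finset X => exists_initial (lam g H) H
  set Lab : Finset (X → ℕ) := Fintype.piFinset fun _ : X => range (L + 1) with hLab
  have hmemLab : ∀ u, u ∈ Lab ↔ ∀ x, u x ≤ L := by
    simp [hLab, Fintype.mem_piFinset]
  set VV : Finset ((X → ℕ) × Finset X) :=
    (Lab ×ˢ univ).filter fun y => Valid F A L y.2 y.1 ∧ y.2.Nonempty with hVV
  set a : (X → ℕ) → ℝ := fun u => ∑ y ∈ VV,
    q ^ y.2.card * ∏ x, if x ∈ y.2 then 1 else if u x = y.1 x then 1 else 0 with ha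
  set b : (X → ℕ) → ℝ := fun u => ∑ S ∈ (univ : Finset (Finset X)).erase ∅,
    g S * ∏ x, if x ∈ S then 16 * (1 / 4 : ℝ) ^ u x else 1 with hb
  have hterm : ∀ (u : X → ℕ) (y : (X → ℕ) × Finset X),
      0 ≤ q ^ y.2.card * ∏ x, if x ∈ y.2 then (1 : ℝ) else if u x = y.1 x then 1 else 0 :=
    fun u y => mul_nonneg (by positivity) (prod_nonneg fun x _ => by split_ifs <;> norm_num)
  have ha0 : ∀ u, 0 ≤ a u := fun u => sum_nonneg fun y _ => hterm u y
  have hterm' : ∀ (u : X → ℕ) (S : Finset X),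
      0 ≤ g S * ∏ x, if x ∈ S then 16 * (1 / 4 : ℝ) ^ u x else 1 :=
    fun u S => mul_nonneg (hg0 S) (prod_nonneg fun x _ => by split_ifs <;> positivity)
  have hb0 : ∀ u, 0 ≤ b u := fun u => sum_nonneg fun S _ => hterm' u S
  have hge : g ∅ ≤ 1 / 2 := by
    refine le_trans ?_ hw
    simpa using single_le_sum (f := fun S : Finset X => g S * p ^ S.card)
      (fun S _ => mul_nonneg (hg0 S) (by positivity)) (mem_univ ∅)
  have hab : ∀ u ∈ Lab, 1 ≤ 2 * a u + 4 * b u := by
    intro u hu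
    rw [hmemLab] at hu
    by_cases hgood : ∃ H ∈ F, OK L u (fun _ => 0) (A H)
    · obtain ⟨H, hH, hOK⟩ := hgood
      have h1 : 1 / 2 ≤ ∑ S ∈ H.powerset.erase ∅, g S := by
        have := hcov H hH
        rw [← add_sum_erase _ _ (empty_mem_powerset H)] at this
        linarith
      have h2 := good_capture hg0 h1 hu (fun k hk => by
        have := hA H (fun x => k < u x) ((1 / 2) ^ (k + 1)) 0 (fun x _ => lam_nonneg hg0 H x)
          (fun j => by
            have h3 := hOK k hk j
            rw [mul_zero, Nat.sub_zero] at h3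
            have h4 : (2 : ℝ) ^ (k + 1) * ((A H j).filter fun x => k < u x).card ≤ j := by
              exact_mod_cast h3
            rw [one_div, inv_pow, le_inv_mul_iff₀ (by positivity)]
            exact h4)
        linarith)
      have h3 : ∑ S ∈ H.powerset.erase ∅, g S * ∏ x ∈ S, (16 * (1 / 4 : ℝ) ^ u x) ≤ b u := by
        simp only [hb, prod_ite_mem, univ_inter]
        exact sum_le_sum_of_subset_of_nonneg (erase_subset_erase _ (subset_univ _))
          fun S _ _ => mul_nonneg (hg0 S) (by positivity)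
      linarith [ha0 u]
    · have h1 : 1 / 2 < ∑ S ∈ (VV.filter fun y => ∀ x ∉ y.2, y.1 x = u x).image Prod.snd,
          q ^ S.card := by
        by_contra h
        refine hsmall ⟨_, fun H hH => ?_, not_lt.mp h⟩
        obtain ⟨U, hUH, z, hz1, hz2, hval⟩ := exists_fragment hmono hsub L hu hH
        refine ⟨U, mem_image.mpr ⟨(z, U), ?_, rfl⟩, hUH⟩
        simp only [hVV, mem_filter, mem_product, mem_univ, and_true]
        refine ⟨⟨(hmemLab z).mpr hz1, hval, ?_⟩, hz2⟩
        rw [nonempty_iff_ne_empty]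
        rintro rfl
        obtain ⟨H', hH', hOK⟩ := hval.2.1
        have : z = u := funext fun x => hz2 x (notMem_empty x)
        exact hgood ⟨H', hH', this ▸ hOK⟩
      have h2 : ∑ S ∈ (VV.filter fun y => ∀ x ∉ y.2, y.1 x = u x).image Prod.snd, q ^ S.card ≤
          a u := by
        refine (sum_image_le_of_nonneg (fun _ _ => by positivity)).trans ?_
        rw [sum_filter]
        refine sum_le_sum fun y _ => ?_
        split_ifs with h
        · rw [prod_eq_one, mul_one]
          intro x _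
          split_ifs with h1 h2
          · rfl
          · rfl
          · exact absurd (h x h1).symm h2
        · exact hterm u y
      linarith [hb0 u]
  have hP1 : ∑ u ∈ Lab, ∏ x, π (u x) = 1 := by
    have := expect_prod (X := X) π L fun _ _ => 1
    simpa [hπ1] using this
  have hEa : ∑ u ∈ Lab, (∏ x, π (u x)) * a u ≤ 1 / 9 := by
    simp only [ha, mul_sum]
    rw [sum_comm]
    have h1 : ∀ y ∈ VV, ∑ u ∈ Lab, (∏ x, π (u x)) * (q ^ y.2.card *
        ∏ x, if x ∈ y.2 then (1 : ℝ) else if u x = y.1 x then 1 else 0) =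
        (∏ x, π (y.1 x)) * ∏ x ∈ y.2, ((1 / 2 : ℝ) ^ y.1 x / 160) := by
      intro y hy
      simp only [hVV, mem_filter, mem_product, mem_univ, and_true, hmemLab] at hy
      simp only [mul_left_comm _ (q ^ y.2.card), ← mul_sum]
      rw [expect_prod π L fun x k => if x ∈ y.2 then (1 : ℝ) else if k = y.1 x then 1 else 0]
      have e1 : q ^ y.2.card = ∏ x, if x ∈ y.2 then q else 1 := by simp
      have e2 : ∏ x ∈ y.2, ((1 / 2 : ℝ) ^ y.1 x / 160) =
          ∏ x, if x ∈ y.2 then ((1 / 2 : ℝ) ^ y.1 x / 160) else 1 := by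
        rw [prod_ite_mem, univ_inter]
      rw [e1, e2, ← prod_mul_distrib, ← prod_mul_distrib]
      refine prod_congr rfl fun x _ => ?_
      split_ifs with h
      · simp only [mul_one, hπ1]
        simp only [hπ, if_pos (hy.2.1.1 x h), one_div, inv_pow]
        field_simp
      · simp [hy.1 x]
    rw [sum_congr rfl h1, hVV, sum_filter, sum_product]
    calc _ ≤ ∑ z ∈ Lab, (∏ x, π (z x)) * (1 / 9) := by
          refine sum_le_sum fun z _ => ?_
          dsimp only
          rw [← sum_filter, ← mul_sum]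
          exact mul_le_mul_of_nonneg_left (sum_valid_le hcard _ fun U hU => (mem_filter.mp hU).2)
            (prod_nonneg fun x _ => hπ0 _)
      _ = 1 / 9 := by rw [← sum_mul, hP1, one_mul]
  have hEb : ∑ u ∈ Lab, (∏ x, π (u x)) * b u ≤ 10240 * q / p * (1 / 2) := by
    simp only [hb, mul_sum]
    rw [sum_comm]
    have h1 : ∀ S ∈ (univ : Finset (Finset X)).erase ∅, ∑ u ∈ Lab, (∏ x, π (u x)) *
        (g S * ∏ x, if x ∈ S then 16 * (1 / 4 : ℝ) ^ u x else 1) ≤
        10240 * q / p * (g S * p ^ S.card) := by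
      intro S hS
      simp only [mul_left_comm _ (g S), ← mul_sum]
      rw [expect_prod π L fun x k => if x ∈ S then 16 * (1 / 4 : ℝ) ^ k else 1]
      refine mul_le_mul_of_nonneg_left ?_ (hg0 S)
      obtain ⟨n, hn⟩ : ∃ n, S.card = n + 1 :=
        Nat.exists_eq_succ_of_ne_zero (by simpa using (mem_erase.mp hS).1)
      calc _ ≤ ∏ x, if x ∈ S then 10240 * q else 1 := by
            refine prod_le_prod (fun x _ => sum_nonneg fun k _ => mul_nonneg (hπ0 k)
              (by split_ifs <;> positivity)) fun x _ => ?_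
            split_ifs
            · exact hπ2
            · simp [hπ1]
        _ = (10240 * q) ^ n * (10240 * q) := by simp [hn, pow_succ]
        _ ≤ p ^ n * (10240 * q) := by gcongr; linarith
        _ = _ := by rw [hn, pow_succ]; field_simp
    refine (sum_le_sum h1).trans ?_
    rw [← mul_sum]
    refine mul_le_mul_of_nonneg_left (le_trans ?_ hw) (by positivity)
    exact sum_le_sum_of_subset_of_nonneg (erase_subset _ _)
      fun S _ _ => mul_nonneg (hg0 S) (by positivity)
  have hfin : ∑ u ∈ Lab, ∏ x, π (u x) ≤ ∑ u ∈ Lab, (∏ x, π (u x)) * (2 * a u + 4 * b u) :=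
    sum_le_sum fun u hu => le_mul_of_one_le_right (prod_nonneg fun x _ => hπ0 _) (hab u hu)
  have e : ∑ u ∈ Lab, (∏ x, π (u x)) * (2 * a u + 4 * b u) =
      2 * ∑ u ∈ Lab, (∏ x, π (u x)) * a u + 4 * ∑ u ∈ Lab, (∏ x, π (u x)) * b u := by
    rw [mul_sum, mul_sum, ← sum_add_distrib]
    exact sum_congr rfl fun u _ => by ring
  have h7 : 10240 * q / p < 10240 / 30000 := by
    rw [div_lt_div_iff₀ hp (by norm_num)]
    linarith
  linarith

theorem frac_le (F : Set (Finset X)) :
    fracThreshold F ≤ 30001 * expThreshold F := by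
  have h0 : 0 ≤ expThreshold F := Real.sSup_nonneg fun p hp => hp.1
  refine Real.sSup_le (fun p hp => ?_) (by positivity)
  obtain ⟨hp0, hp1, hp⟩ := hp
  rcases hp0.eq_or_lt with rfl | hp0'
  · positivity
  have h1 : IsSmall F (p / 30001) := by
    by_contra h
    have := main_ineq hp0' (by positivity) hp h hp1
    linarith
  have h2 : p / 30001 ≤ expThreshold F :=
    le_csSup ⟨1, fun x hx => hx.2.1⟩ ⟨by positivity, by linarith, h1⟩
  linarith

end Vale.Agent.P034
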